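import Vale.Agent.P317.Main

/-! An FPRAS for the number of common bases of two matroids given by independence oracles. -/

open Vale.Agent.P317

theorem Vale.Agent.Results.P317.FPRAS.result :
    ∃ (P : Stmt) (c : ℕ), ∀ (n : ℕ) (M₁ M₂ : Matroid (Fin n)),
      M₁.E = Set.univ → M₂.E = Set.univ → M₁.eRank = M₂.eRank →
      ∀ ε δ : ℚ, 0 < ε → ε < 1 → 0 < δ → δ < 1 →
      ∃ T : ℕ, (T : ℝ) ≤ c * (n + 1 / (ε : ℝ) + Real.log (1 / (δ : ℝ))) ^ c ∧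
        (∀ ω : Fin T → Bool, (run M₁ M₂ P ε δ ω).1 = []) ∧
        (1 - (δ : ℝ)) * 2 ^ T ≤
          (Set.ncard {ω : Fin T → Bool |
            GoodOutput (commonBases M₁ M₂) ε (run M₁ M₂ P ε δ ω).2} : ℝ) := by
  obtain ⟨P, c, h⟩ := fpras
  refine ⟨P, c, fun n M₁ M₂ h1 h2 h3 ε δ a1 a2 a3 a4 => ?_⟩
  obtain ⟨T, t1, t2, t3⟩ := h n M₁ M₂ h1 h2 h3 ε δ a1 a2 a3 a4
  refine ⟨T, t1, t2, t3.trans (le_of_eq ?_)⟩
  rw [← Set.ncard_coe_finset]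
  congr 2
  ext ω
  simp
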